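import Vale.Agent.P032.Words.H151.Pal

/-!
# P032: the tables of palettes as statements about sets of colours

`M`: a graph on the six colours.  `LegC M h`: the six sets `h k` are pairs of `M`, neighbours are
disjoint, antipodes satisfy the chord rule.  `AllowT M T`: the six palettes are pairs of `M` or triples
with at least two pairs of `M`.  `setTab`: a table of `Words/H151/Pal.lean` gives an invariant of the words
which is constant below every palette tuple.
-/

open Set

noncomputable section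

namespace Vale.Agent.P032.Words6.H724

open Vale.Agent.P032.Words.Trie

/-! ### Sets of colours -/

/-- `s` is a pair of the graph -/
def PairM (M : Fin 6 → Fin 6 → Prop) (s : Set (Fin 6)) : Prop := ∃ a b, M a b ∧ s = {a, b}

/-- `l` and `m` are separated by every cut of the complement of `P` -/
def SpM (M : Fin 6 → Fin 6 → Prop) (P : Set (Fin 6)) (l m : Fin 6) : Prop :=
  ∀ X Y : Set (Fin 6), X ∪ Y = Pᶜ → Disjoint X Y → X.Nonempty → Y.Nonempty →
    (∀ x ∈ X, ∀ y ∈ Y, M x y) → (l ∈ X ∧ m ∈ Y) ∨ (l ∈ Y ∧ m ∈ X)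

/-- the chord rule -/
def ChM (M : Fin 6 → Fin 6 → Prop) (P Q : Set (Fin 6)) : Prop :=
  ∃ l m, l ∉ P ∪ Q ∧ m ∉ P ∪ Q ∧ SpM M P l m ∧ SpM M Q l m

/-- legal words -/
structure LegC (M : Fin 6 → Fin 6 → Prop) (h : Fin 6 → Set (Fin 6)) : Prop where
  pair : ∀ k, PairM M (h k)
  nb : ∀ k, Disjoint (h k) (h (k + 1))
  ch : ∀ k, ChM M (h k) (h (k + 3))

/-- allowed palettes -/
structure AllowT (M : Fin 6 → Fin 6 → Prop) (T : Fin 6 → Set (Fin 6)) : Prop where
  pal : ∀ k, PairM M (T k) ∨ ((T k).ncard = 3 ∧ ∃ s t, s ≠ t ∧ PairM M s ∧ PairM M t ∧ s ⊆ T k ∧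
    t ⊆ T k)
  nb : ∀ k, ((T k).ncard = 2 ∨ (T (k + 1)).ncard = 2 → Disjoint (T k) (T (k + 1))) ∧
    (T k ∩ T (k + 1)).ncard ≤ 1
  op : ∀ k, (T k).ncard = 2 → (T (k + 3)).ncard = 3 → (T k ∩ T (k + 3)).Nonempty

/-! ### Masks -/

/-- `t` is the mask of `S` with the names `nm` of the bits -/
def Msk (nm : Fin 6 → Fin 6) (S : Set (Fin 6)) (t : ℕ) : Prop :=
  t < 64 ∧ ∀ i : Fin 6, bt t i.val = true ↔ nm i ∈ S

theorem exists_bits : ∀ s : Fin 6 → Bool, ∃ t : Fin 64, ∀ i : Fin 6, bt t.val i.val = s i := by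
  decide +kernel

theorem exists_msk (nm : Fin 6 → Fin 6) (S : Set (Fin 6)) : ∃ t, Msk nm S t := by
  classical
  obtain ⟨t, ht⟩ := exists_bits fun i => decide (nm i ∈ S)
  refine ⟨t.val, t.isLt, fun i => ?_⟩
  rw [ht i, decide_eq_true_iff]

theorem bits_inj {x y : ℕ} (hx : x < 64) (hy : y < 64)
    (h : ∀ i : Fin 6, bt x i.val = bt y i.val) : x = y := by
  have key : ∀ x y : Fin 64, (∀ i : Fin 6, bt x.val i.val = bt y.val i.val) → x.val = y.val := by
    decide +kernel
  exact key ⟨x, hx⟩ ⟨y, hy⟩ h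

theorem Msk.unique {nm : Fin 6 → Fin 6} {S : Set (Fin 6)} {t t' : ℕ} (h : Msk nm S t)
    (h' : Msk nm S t') : t = t' := by
  refine bits_inj h.1 h'.1 fun i => ?_
  rw [Bool.eq_iff_iff, h.2 i, h'.2 i]

theorem Msk.inj {nm : Fin 6 → Fin 6} (hs : Function.Surjective nm) {S S' : Set (Fin 6)} {t : ℕ}
    (h : Msk nm S t) (h' : Msk nm S' t) : S = S' := by
  ext x
  obtain ⟨i, rfl⟩ := hs x
  rw [← h.2 i, ← h'.2 i]

/-- the mask -/
def mk (nm : Fin 6 → Fin 6) (S : Set (Fin 6)) : ℕ := (exists_msk nm S).choose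

theorem mk_spec (nm : Fin 6 → Fin 6) (S : Set (Fin 6)) : Msk nm S (mk nm S) :=
  (exists_msk nm S).choose_spec

theorem land_lt {x y : ℕ} (hx : x < 64) : Nat.land x y < 64 :=
  lt_of_le_of_lt (show x &&& y ≤ x from Nat.and_le_left) hx

theorem Msk.inter {nm : Fin 6 → Fin 6} {S S' : Set (Fin 6)} {t t' : ℕ} (h : Msk nm S t)
    (h' : Msk nm S' t') : Msk nm (S ∩ S') (Nat.land t t') := by
  refine ⟨land_lt h.1, fun i => ?_⟩
  rw [bt_land, Bool.and_eq_true, h.2 i, h'.2 i]
  exact Iff.rfl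

theorem eq_zero_of {x : ℕ} (hx : x < 64) (h : ∀ i : Fin 6, bt x i.val = false) : x = 0 := by
  refine bits_inj hx (by norm_num) fun i => ?_
  rw [h i]
  have : ∀ i : Fin 6, bt 0 i.val = false := by decide
  exact (this i).symm

theorem Msk.empty {nm : Fin 6 → Fin 6} {S : Set (Fin 6)} {t : ℕ} (h : Msk nm S t) (hS : S = ∅) :
    t = 0 := by
  refine eq_zero_of h.1 fun i => ?_
  have := h.2 i
  rw [hS] at this
  cases hb : bt t i.val with
  | false => rfl
  | true => exact absurd (this.1 hb) (Set.notMem_empty _)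

theorem Msk.nonempty {nm : Fin 6 → Fin 6} {S : Set (Fin 6)} {t : ℕ} (h : Msk nm S t)
    (hS : S.Nonempty) (hs : Function.Surjective nm) : t ≠ 0 := by
  rintro rfl
  obtain ⟨x, hx⟩ := hS
  obtain ⟨i, rfl⟩ := hs x
  have := (h.2 i).2 hx
  have k : ∀ i : Fin 6, bt 0 i.val = false := by decide
  rw [k i] at this
  exact absurd this (by decide)

theorem Msk.subset {nm : Fin 6 → Fin 6} {S S' : Set (Fin 6)} {t t' : ℕ} (h : Msk nm S t)
    (h' : Msk nm S' t') (hS : S ⊆ S') : Nat.land t t' = t := by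
  refine bits_inj (land_lt h.1) h.1 fun i => ?_
  rw [bt_land]
  cases hb : bt t i.val with
  | false => rfl
  | true =>
    rw [(h'.2 i).2 (hS ((h.2 i).1 hb))]
    rfl

/-- number of the bits -/
def pc (t : ℕ) : ℕ := (Finset.univ.filter fun i : Fin 6 => bt t i.val = true).card

theorem Msk.ncard {nm : Fin 6 → Fin 6} (hi : Function.Injective nm) (hs : Function.Surjective nm)
    {S : Set (Fin 6)} {t : ℕ} (h : Msk nm S t) : S.ncard = pc t := by
  classical
  have e : S = ((Finset.univ.filter fun i : Fin 6 => bt t i.val = true).image nm :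
      Finset (Fin 6)) := by
    ext x
    obtain ⟨i, rfl⟩ := hs x
    rw [Finset.mem_coe, Finset.mem_image]
    constructor
    · intro hx
      exact ⟨i, Finset.mem_filter.2 ⟨Finset.mem_univ i, (h.2 i).2 hx⟩, rfl⟩
    · rintro ⟨j, hj, hji⟩
      rw [← hji]
      exact (h.2 j).1 (Finset.mem_filter.1 hj).2
  rw [e, Set.ncard_coe_finset, Finset.card_image_of_injective _ hi]
  rfl

/-! ### Boolean functions -/

/-- number of the bits (for the kernel) -/
def pcB (t : ℕ) : ℕ :=
  Nat.add (cond (bt t 0) 1 0) (Nat.add (cond (bt t 1) 1 0) (Nat.add (cond (bt t 2) 1 0)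
    (Nat.add (cond (bt t 3) 1 0) (Nat.add (cond (bt t 4) 1 0) (cond (bt t 5) 1 0)))))

theorem pc_eq : ∀ t : Fin 64, pc t.val = pcB t.val := by decide +kernel

/-- membership -/
def memB (x : ℕ) : List ℕ → Bool
  | [] => false
  | y :: l => cond (Nat.beq x y) true (memB x l)

theorem memB_iff {x : ℕ} : ∀ {l : List ℕ}, memB x l = true ↔ x ∈ l
  | [] => by simp [memB]
  | y :: l => by
    unfold memB
    cases h : Nat.beq x y with
    | true =>
      have := Nat.eq_of_beq_eq_true h
      simp [this]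
    | false =>
      have h1 : x ≠ y := by
        rintro rfl
        rw [Nat.beq_refl] at h
        exact absurd h (by decide)
      simp only [cond_false, List.mem_cons, h1, false_or]
      exact memB_iff

/-- mask of a pair -/
def pm (i j : ℕ) : ℕ := Nat.lor (Nat.pow 2 i) (Nat.pow 2 j)

/-- all pairs between two masks are in the list -/
def cross (L : List ℕ) (X Y : ℕ) : Bool := ([0, 1, 2, 3, 4, 5] : List ℕ).all fun i =>
  cond (bt X i) (([0, 1, 2, 3, 4, 5] : List ℕ).all fun j => cond (bt Y j) (memB (pm i j) L) true) true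

/-- `l`, `m` are separated by the cuts of the complement of `p` -/
def spB (L : List ℕ) (p l m : ℕ) : Bool := (List.range 64).all fun X =>
  cond (Nat.beq (Nat.land X p) 0) (cond (Nat.beq X 0) true
    (cond (Nat.beq (Nat.lor X p) 63) true
      (cond (cross L X (Nat.sub (Nat.sub 63 p) X))
        ((bt X l && bt (Nat.sub (Nat.sub 63 p) X) m) || (bt (Nat.sub (Nat.sub 63 p) X) l && bt X m))
        true))) true

/-- the chord rule for masks -/
def chB (L : List ℕ) (p q : ℕ) : Bool := ([0, 1, 2, 3, 4, 5] : List ℕ).any fun l =>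
  cond (bt p l || bt q l) false (([0, 1, 2, 3, 4, 5] : List ℕ).any fun m =>
    cond (bt p m || bt q m) false (spB L p l m && spB L q l m))

/-- palettes: pairs, and triples with at least two pairs -/
def isPal (L : List ℕ) (t : ℕ) : Bool := memB t L ||
  (Nat.beq (pcB t) 3 && L.any fun a => L.any fun b =>
    !(Nat.beq a b) && (Nat.beq (Nat.land a t) a && Nat.beq (Nat.land b t) b))

/-- neighbouring palettes -/
def alw (x y : ℕ) : Bool := cond (Nat.beq (pcB x) 2 || Nat.beq (pcB y) 2)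
  (Nat.beq (Nat.land x y) 0) (Nat.ble (pcB (Nat.land x y)) 1)

/-- antipodal palettes -/
def alwO (L : List ℕ) (x y : ℕ) : Bool :=
  cond (Nat.beq (pcB x) 2) (cond (Nat.beq (pcB y) 2) (chB L x y) (!(Nat.beq (Nat.land x y) 0)))
    (cond (Nat.beq (pcB y) 2) (!(Nat.beq (Nat.land x y) 0)) true)

/-- the lists of the table describe the graph `L` -/
def okTab (A N : ℕ) (L P nb op nbT opT : List ℕ) (PL : List (List ℕ)) : Bool :=
  Nat.beq L.length A && (Nat.beq P.length N && (
  (L.all fun m => Nat.ble m 63 && Nat.beq (pcB m) 2) && (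
  ((List.range A).all fun i => (List.range A).all fun j =>
    cond (Nat.beq (Nat.land (L.getD i 0) (L.getD j 0)) 0) (bt (nb.getD i 0) j) true) && (
  ((List.range A).all fun i => (List.range A).all fun j =>
    cond (bt (op.getD i 0) j) true (!(chB L (L.getD i 0) (L.getD j 0)))) && (
  ((List.range 64).all fun t => cond (isPal L t) (memB t P) true) && (
  ((List.range N).all fun i => (List.range N).all fun j =>
    cond (alw (P.getD i 0) (P.getD j 0)) (bt (nbT.getD i 0) j) true) && (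
  ((List.range N).all fun i => (List.range N).all fun j =>
    cond (bt (opT.getD i 0) j) true (!(alwO L (P.getD i 0) (P.getD j 0)))) &&
  ((List.range N).all fun p => (List.range A).all fun i =>
    cond (Nat.beq (Nat.land (L.getD i 0) (P.getD p 0)) (L.getD i 0)) (memB i (PL.getD p [])) true))))))))

/-! ### The meaning of the boolean functions -/

section spec

variable {M : Fin 6 → Fin 6 → Prop} {nm : Fin 6 → Fin 6} {L : List ℕ}

/-- the list describes the graph -/
def Desc (M : Fin 6 → Fin 6 → Prop) (nm : Fin 6 → Fin 6) (L : List ℕ) : Prop :=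
  ∀ i j : Fin 6, i ≠ j → (M (nm i) (nm j) ↔ pm i.val j.val ∈ L)

/-- the set of a mask -/
def st (nm : Fin 6 → Fin 6) (t : ℕ) : Set (Fin 6) := {c | ∃ i : Fin 6, nm i = c ∧ bt t i.val = true}

theorem st_msk (hi : Function.Injective nm) {t : ℕ} (ht : t < 64) : Msk nm (st nm t) t := by
  refine ⟨ht, fun i => ⟨fun h => ⟨i, rfl, h⟩, ?_⟩⟩
  rintro ⟨j, hj, hb⟩
  rw [← hi hj]; exact hb

theorem six {i : ℕ} (h : i ∈ ([0, 1, 2, 3, 4, 5] : List ℕ)) : i < 6 := by
  simp only [List.mem_cons, List.not_mem_nil, or_false] at h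
  omega

theorem mem_six (i : Fin 6) : i.val ∈ ([0, 1, 2, 3, 4, 5] : List ℕ) := by
  revert i; decide

theorem cross_spec (hs : Function.Surjective nm) (hD : Desc M nm L) {X Y : Set (Fin 6)} {x y : ℕ}
    (hX : Msk nm X x) (hY : Msk nm Y y) (hXY : Disjoint X Y) (h : cross L x y = true) :
    ∀ a ∈ X, ∀ b ∈ Y, M a b := by
  intro a ha b hb
  obtain ⟨i, rfl⟩ := hs a
  obtain ⟨j, rfl⟩ := hs b
  have hij : i ≠ j := by
    rintro rfl
    exact Set.disjoint_left.1 hXY ha hb
  have h1 := List.all_eq_true.1 h i.val (mem_six i)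
  rw [(hX.2 i).2 ha, cond_true] at h1
  have h2 := List.all_eq_true.1 h1 j.val (mem_six j)
  rw [(hY.2 j).2 hb, cond_true, memB_iff] at h2
  exact (hD i j hij).2 h2

set_option maxRecDepth 100000 in
theorem compl_bits : ∀ p x : Fin 64, Nat.land x.val p.val = 0 →
    Nat.sub (Nat.sub 63 p.val) x.val < 64 ∧
    (Nat.beq (Nat.lor x.val p.val) 63 = false → Nat.sub (Nat.sub 63 p.val) x.val ≠ 0) ∧
    ∀ i : Fin 6, bt (Nat.sub (Nat.sub 63 p.val) x.val) i.val =
      (!(bt p.val i.val) && !(bt x.val i.val)) := by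
  decide +kernel

theorem ne_zero_bit {x : ℕ} (hx : x < 64) (h : x ≠ 0) : ∃ i : Fin 6, bt x i.val = true := by
  by_contra hcon
  push Not at hcon
  exact h (eq_zero_of hx fun i => by simpa using hcon i)

theorem beq_false {x y : ℕ} (h : x ≠ y) : Nat.beq x y = false := by
  cases hb : Nat.beq x y with
  | false => rfl
  | true => exact absurd (Nat.eq_of_beq_eq_true hb) h

theorem spB_of (hi : Function.Injective nm) (hs : Function.Surjective nm) (hD : Desc M nm L)
    {P : Set (Fin 6)} {p : ℕ} (hP : Msk nm P p) {l m : Fin 6} (h : SpM M P (nm l) (nm m)) :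
    spB L p l.val m.val = true := by
  unfold spB
  rw [List.all_eq_true]
  intro x hx
  have hx64 : x < 64 := List.mem_range.1 hx
  cases h1 : Nat.beq (Nat.land x p) 0 with
  | false => rfl
  | true =>
  rw [cond_true]
  cases h2 : Nat.beq x 0 with
  | true => rfl
  | false =>
  rw [cond_false]
  cases h3 : Nat.beq (Nat.lor x p) 63 with
  | true => rfl
  | false =>
  rw [cond_false]
  cases h4 : cross L x (Nat.sub (Nat.sub 63 p) x) with
  | false => rfl
  | true =>
  rw [cond_true]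
  obtain ⟨c1, c2, c3⟩ := compl_bits ⟨p, hP.1⟩ ⟨x, hx64⟩ (Nat.eq_of_beq_eq_true h1)
  have c1 : Nat.sub (Nat.sub 63 p) x < 64 := c1
  have c2 := c2 h3
  have c3 : ∀ i : Fin 6, bt (Nat.sub (Nat.sub 63 p) x) i.val = (!(bt p i.val) && !(bt x i.val)) := c3
  set y := Nat.sub (Nat.sub 63 p) x with hy
  have hX := st_msk hi hx64
  have hY := st_msk hi c1
  have hland : ∀ i : Fin 6, bt x i.val = true → bt p i.val = false := by
    intro i hb
    have h5 : bt (Nat.land x p) i.val = false := by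
      rw [Nat.eq_of_beq_eq_true h1]
      have : ∀ i : Fin 6, bt 0 i.val = false := by decide
      exact this i
    rw [bt_land, hb, Bool.true_and] at h5
    exact h5
  have hdis : Disjoint (st nm x) (st nm y) := by
    rw [Set.disjoint_left]
    rintro c ⟨i, rfl, hb⟩ hc
    have := (hY.2 i).2 hc
    rw [c3, hb, Bool.not_true, Bool.and_false] at this
    exact absurd this (by decide)
  have hun : st nm x ∪ st nm y = Pᶜ := by
    ext c
    obtain ⟨i, rfl⟩ := hs c
    rw [Set.mem_union, ← hX.2 i, ← hY.2 i, Set.mem_compl_iff, ← hP.2 i, c3]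
    have h6 := hland i
    revert h6
    cases bt x i.val <;> cases bt p i.val <;> simp
  have hn1 : (st nm x).Nonempty := by
    obtain ⟨i, hb⟩ := ne_zero_bit hx64 (fun h0 => by rw [h0] at h2; exact absurd h2 (by decide))
    exact ⟨nm i, i, rfl, hb⟩
  have hn2 : (st nm y).Nonempty := by
    obtain ⟨i, hb⟩ := ne_zero_bit c1 c2
    exact ⟨nm i, i, rfl, hb⟩
  rcases h _ _ hun hdis hn1 hn2 (cross_spec hs hD hX hY hdis h4) with ⟨k1, k2⟩ | ⟨k1, k2⟩
  · rw [(hX.2 l).2 k1, (hY.2 m).2 k2]; rfl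
  · rw [(hY.2 l).2 k1, (hX.2 m).2 k2]
    simp

theorem chB_of (hi : Function.Injective nm) (hs : Function.Surjective nm) (hD : Desc M nm L)
    {P Q : Set (Fin 6)} {p q : ℕ} (hP : Msk nm P p) (hQ : Msk nm Q q) (h : ChM M P Q) :
    chB L p q = true := by
  obtain ⟨l, m, hl, hm, h1, h2⟩ := h
  obtain ⟨l, rfl⟩ := hs l
  obtain ⟨m, rfl⟩ := hs m
  have key : ∀ j : Fin 6, nm j ∉ P ∪ Q → (bt p j.val || bt q j.val) = false := by
    intro j hj
    rw [Bool.or_eq_false_iff]
    constructor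
    · cases hb : bt p j.val with
      | false => rfl
      | true => exact absurd (Or.inl ((hP.2 j).1 hb)) hj
    · cases hb : bt q j.val with
      | false => rfl
      | true => exact absurd (Or.inr ((hQ.2 j).1 hb)) hj
  unfold chB
  rw [List.any_eq_true]
  refine ⟨l.val, mem_six l, ?_⟩
  rw [key l hl, cond_false, List.any_eq_true]
  refine ⟨m.val, mem_six m, ?_⟩
  rw [key m hm, cond_false, spB_of hi hs hD hP h1, spB_of hi hs hD hQ h2]
  rfl

theorem pm_bits : ∀ i j k : Fin 6, bt (pm i.val j.val) k.val = true ↔ k = i ∨ k = j := by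
  decide +kernel

theorem pm_lt : ∀ i j : Fin 6, pm i.val j.val < 64 := by decide

theorem pair_msk (hi : Function.Injective nm) (i j : Fin 6) :
    Msk nm {nm i, nm j} (pm i.val j.val) := by
  refine ⟨pm_lt i j, fun k => ?_⟩
  rw [pm_bits, Set.mem_insert_iff, Set.mem_singleton_iff]
  constructor
  · rintro (rfl | rfl)
    · exact Or.inl rfl
    · exact Or.inr rfl
  · rintro (h | h)
    · exact Or.inl (hi h)
    · exact Or.inr (hi h)

theorem pair_mem (hirr : ∀ a, ¬ M a a) (hi : Function.Injective nm) (hs : Function.Surjective nm)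
    (hD : Desc M nm L) {s : Set (Fin 6)} (h : PairM M s) {t : ℕ} (ht : Msk nm s t) : t ∈ L := by
  obtain ⟨a, b, hM, rfl⟩ := h
  obtain ⟨i, rfl⟩ := hs a
  obtain ⟨j, rfl⟩ := hs b
  have hij : i ≠ j := by
    rintro rfl
    exact hirr _ hM
  rw [ht.unique (pair_msk hi i j)]
  exact (hD i j hij).1 hM

theorem pair_card (hirr : ∀ a, ¬ M a a) {s : Set (Fin 6)} (h : PairM M s) : s.ncard = 2 := by
  obtain ⟨a, b, hM, rfl⟩ := h
  refine Set.ncard_pair ?_
  rintro rfl
  exact hirr _ hM

theorem getD_idx {l : List ℕ} {m : ℕ} (h : m ∈ l) : l.getD (l.idxOf m) 0 = m := by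
  have h1 : l.idxOf m < l.length := List.idxOf_lt_length_iff.2 h
  rw [List.getD_eq_getElem _ _ h1]
  exact List.getElem_idxOf h1

/-- everything known from the check -/
structure OkT (A N : ℕ) (L P nb op nbT opT : List ℕ) (PL : List (List ℕ)) : Prop where
  lA : L.length = A
  lP : P.length = N
  hnb : ∀ i < A, ∀ j < A, Nat.land (L.getD i 0) (L.getD j 0) = 0 → bt (nb.getD i 0) j = true
  hop : ∀ i < A, ∀ j < A, chB L (L.getD i 0) (L.getD j 0) = true → bt (op.getD i 0) j = true
  hP : ∀ t < 64, isPal L t = true → t ∈ P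
  hnbT : ∀ i < N, ∀ j < N, alw (P.getD i 0) (P.getD j 0) = true → bt (nbT.getD i 0) j = true
  hopT : ∀ i < N, ∀ j < N, alwO L (P.getD i 0) (P.getD j 0) = true → bt (opT.getD i 0) j = true
  hPL : ∀ p < N, ∀ i < A, Nat.land (L.getD i 0) (P.getD p 0) = L.getD i 0 → i ∈ PL.getD p []

theorem ok_of {A N : ℕ} {L P nb op nbT opT : List ℕ} {PL : List (List ℕ)}
    (h : okTab A N L P nb op nbT opT PL = true) : OkT A N L P nb op nbT opT PL := by
  unfold okTab at h
  simp only [Bool.and_eq_true] at h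
  obtain ⟨h1, h2, -, h4, h5, h6, h7, h8, h9⟩ := h
  refine ⟨Nat.eq_of_beq_eq_true h1, Nat.eq_of_beq_eq_true h2, ?_, ?_, ?_, ?_, ?_, ?_⟩
  · intro i hi j hj hl
    have := List.all_eq_true.1 (List.all_eq_true.1 h4 i (List.mem_range.2 hi)) j
      (List.mem_range.2 hj)
    rw [hl, show Nat.beq 0 0 = true from rfl, cond_true] at this
    exact this
  · intro i hi j hj hl
    have := List.all_eq_true.1 (List.all_eq_true.1 h5 i (List.mem_range.2 hi)) j
      (List.mem_range.2 hj)
    cases hb : bt (op.getD i 0) j with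
    | true => rfl
    | false =>
      rw [hb, cond_false, hl] at this
      exact absurd this (by decide)
  · intro t ht hl
    have := List.all_eq_true.1 h6 t (List.mem_range.2 ht)
    rw [hl, cond_true, memB_iff] at this
    exact this
  · intro i hi j hj hl
    have := List.all_eq_true.1 (List.all_eq_true.1 h7 i (List.mem_range.2 hi)) j
      (List.mem_range.2 hj)
    rw [hl, cond_true] at this
    exact this
  · intro i hi j hj hl
    have := List.all_eq_true.1 (List.all_eq_true.1 h8 i (List.mem_range.2 hi)) j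
      (List.mem_range.2 hj)
    cases hb : bt (opT.getD i 0) j with
    | true => rfl
    | false =>
      rw [hb, cond_false, hl] at this
      exact absurd this (by decide)
  · intro p hp i hi hl
    have := List.all_eq_true.1 (List.all_eq_true.1 h9 p (List.mem_range.2 hp)) i
      (List.mem_range.2 hi)
    rw [hl, Nat.beq_refl, cond_true, memB_iff] at this
    exact this

/-- the word of indices of a family of sets -/
def wd (nm : Fin 6 → Fin 6) (L : List ℕ) (h : Fin 6 → Set (Fin 6)) (k : ℕ) : ℕ :=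
  if hk : k < 6 then L.idxOf (mk nm (h ⟨k, hk⟩)) else 0

theorem wd_fin (h : Fin 6 → Set (Fin 6)) (k : Fin 6) :
    wd nm L h k.val = L.idxOf (mk nm (h k)) := by
  unfold wd
  rw [dif_pos k.isLt]

theorem legC_leg {A N : ℕ} {P nb op nbT opT : List ℕ} {PL : List (List ℕ)}
    (O : OkT A N L P nb op nbT opT PL) (hirr : ∀ a, ¬ M a a) (hi : Function.Injective nm)
    (hs : Function.Surjective nm) (hD : Desc M nm L) {h : Fin 6 → Set (Fin 6)} (hL : LegC M h) :
    Leg6 A nb op (wd nm L h) := by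
  have hm : ∀ k, mk nm (h k) ∈ L := fun k => pair_mem hirr hi hs hD (hL.pair k) (mk_spec nm _)
  have hlt : ∀ k : Fin 6, wd nm L h k.val < A := fun k => by
    rw [wd_fin, ← O.lA]
    exact List.idxOf_lt_length_iff.2 (hm k)
  have hg : ∀ k : Fin 6, L.getD (wd nm L h k.val) 0 = mk nm (h k) := fun k => by
    rw [wd_fin]; exact getD_idx (hm k)
  have hn : ∀ k : Fin 6, rel nb (wd nm L h k.val) (wd nm L h (k + 1 : Fin 6).val) := by
    intro k
    refine O.hnb _ (hlt k) _ (hlt (k + 1)) ?_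
    rw [hg, hg]
    exact ((mk_spec nm (h k)).inter (mk_spec nm (h (k + 1)))).empty
      (Set.disjoint_iff_inter_eq_empty.1 (hL.nb k))
  have ho : ∀ k : Fin 6, rel op (wd nm L h k.val) (wd nm L h (k + 3 : Fin 6).val) := by
    intro k
    refine O.hop _ (hlt k) _ (hlt (k + 3)) ?_
    rw [hg, hg]
    exact chB_of hi hs hD (mk_spec nm _) (mk_spec nm _) (hL.ch k)
  exact ⟨fun k hk => hlt ⟨k, hk⟩, hn 0, hn 1, hn 2, hn 3, hn 4, hn 5, ho 0, ho 1, ho 2⟩

theorem pcB_eq {t : ℕ} (ht : t < 64) : pcB t = pc t := (pc_eq ⟨t, ht⟩).symm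

theorem allowT_leg {A N : ℕ} {P nb op nbT opT : List ℕ} {PL : List (List ℕ)}
    (O : OkT A N L P nb op nbT opT PL) (hirr : ∀ a, ¬ M a a) (hi : Function.Injective nm)
    (hs : Function.Surjective nm) (hD : Desc M nm L) {T : Fin 6 → Set (Fin 6)} (hT : AllowT M T)
    {h : Fin 6 → Set (Fin 6)} (hL : LegC M h) (hsub : ∀ k, h k ⊆ T k) :
    Leg6 N nbT opT (wd nm P T) ∧ ∀ k : Fin 6, mk nm (T k) ∈ P := by
  have hcard : ∀ k, pcB (mk nm (T k)) = (T k).ncard := fun k => by
    rw [pcB_eq (mk_spec nm _).1]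
    exact ((mk_spec nm (T k)).ncard hi hs).symm
  have h23 : ∀ k, (T k).ncard = 2 ∨ (T k).ncard = 3 := fun k => by
    rcases hT.pal k with h1 | h1
    · exact Or.inl (pair_card hirr h1)
    · exact Or.inr h1.1
  have hm : ∀ k, mk nm (T k) ∈ P := by
    intro k
    refine O.hP _ (mk_spec nm _).1 ?_
    unfold isPal
    rw [Bool.or_eq_true]
    rcases hT.pal k with h1 | ⟨h1, s, t, hst, hps, hpt, hs1, ht1⟩
    · left
      rw [memB_iff]
      exact pair_mem hirr hi hs hD h1 (mk_spec nm _)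
    · right
      rw [Bool.and_eq_true]
      refine ⟨by rw [hcard, h1]; rfl, ?_⟩
      rw [List.any_eq_true]
      refine ⟨mk nm s, pair_mem hirr hi hs hD hps (mk_spec nm _), ?_⟩
      rw [List.any_eq_true]
      refine ⟨mk nm t, pair_mem hirr hi hs hD hpt (mk_spec nm _), ?_⟩
      have e1 : Nat.land (mk nm s) (mk nm (T k)) = mk nm s := (mk_spec nm s).subset (mk_spec nm _) hs1
      have e2 : Nat.land (mk nm t) (mk nm (T k)) = mk nm t := (mk_spec nm t).subset (mk_spec nm _) ht1
      have e3 : Nat.beq (mk nm s) (mk nm t) = false := by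
        refine beq_false fun he => hst ?_
        exact (mk_spec nm s).inj hs (he ▸ mk_spec nm t)
      rw [e1, e2, e3, Nat.beq_refl, Nat.beq_refl]
      rfl
  have hlt : ∀ k : Fin 6, wd nm P T k.val < N := fun k => by
    rw [wd_fin, ← O.lP]
    exact List.idxOf_lt_length_iff.2 (hm k)
  have hg : ∀ k : Fin 6, P.getD (wd nm P T k.val) 0 = mk nm (T k) := fun k => by
    rw [wd_fin]; exact getD_idx (hm k)
  have hn : ∀ k : Fin 6, rel nbT (wd nm P T k.val) (wd nm P T (k + 1 : Fin 6).val) := by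
    intro k
    refine O.hnbT _ (hlt k) _ (hlt (k + 1)) ?_
    rw [hg, hg]
    unfold alw
    have hI := (mk_spec nm (T k)).inter (mk_spec nm (T (k + 1)))
    cases hb : (Nat.beq (pcB (mk nm (T k))) 2 || Nat.beq (pcB (mk nm (T (k + 1)))) 2) with
    | true =>
      rw [Bool.or_eq_true, hcard, hcard] at hb
      have h1 : (T k).ncard = 2 ∨ (T (k + 1)).ncard = 2 :=
        hb.imp Nat.eq_of_beq_eq_true Nat.eq_of_beq_eq_true
      rw [cond_true, hI.empty (Set.disjoint_iff_inter_eq_empty.1 ((hT.nb k).1 h1))]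
      rfl
    | false =>
      rw [cond_false, pcB_eq hI.1, ← hI.ncard hi hs]
      exact Nat.ble_eq_true_of_le (hT.nb k).2
  have hTh : ∀ k, (T k).ncard = 2 → h k = T k := fun k hk =>
    Set.eq_of_subset_of_ncard_le (hsub k) (by rw [hk, pair_card hirr (hL.pair k)]) (Set.toFinite _)
  have hmeet : ∀ k : Fin 6, (T k ∩ T (k + 3)).Nonempty →
      Nat.beq (Nat.land (mk nm (T k)) (mk nm (T (k + 3)))) 0 = false := fun k hne =>
    beq_false (((mk_spec nm (T k)).inter (mk_spec nm (T (k + 3)))).nonempty hne hs)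
  have ho : ∀ k : Fin 6, rel opT (wd nm P T k.val) (wd nm P T (k + 3 : Fin 6).val) := by
    intro k
    refine O.hopT _ (hlt k) _ (hlt (k + 3)) ?_
    rw [hg, hg]
    unfold alwO
    rw [hcard, hcard]
    have k33 : k + 3 + 3 = k := by revert k; decide
    rcases h23 k with h1 | h1 <;> rcases h23 (k + 3) with h2 | h2
    · rw [h1, h2, show Nat.beq 2 2 = true from rfl, cond_true, cond_true]
      have := hL.ch k
      rw [hTh k h1, hTh (k + 3) h2] at this
      exact chB_of hi hs hD (mk_spec nm _) (mk_spec nm _) this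
    · rw [h1, h2, show Nat.beq 2 2 = true from rfl, cond_true,
        show Nat.beq 3 2 = false from rfl, cond_false, hmeet k (hT.op k h1 h2)]
      rfl
    · have := hT.op (k + 3) h2 (by rw [k33]; exact h1)
      rw [k33, Set.inter_comm] at this
      rw [h1, h2, show Nat.beq 2 2 = true from rfl, show Nat.beq 3 2 = false from rfl, cond_false,
        cond_true, hmeet k this]
      rfl
    · rw [h1, h2, show Nat.beq 3 2 = false from rfl, cond_false, cond_false]
  exact ⟨⟨fun k hk => hlt ⟨k, hk⟩, hn 0, hn 1, hn 2, hn 3, hn 4, hn 5, ho 0, ho 1, ho 2⟩, hm⟩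

/-- **The tables as statements about sets.** -/
theorem setTab {A N : ℕ} {P nb op nbT opT : List ℕ} {PL : List (List ℕ)} {T : Tr} (hA : A ≤ 10)
    (hN : N ≤ 40) (ok : okTab A N L P nb op nbT opT PL = true)
    (hc : chkP A N nb op nbT opT PL T = true) (hirr : ∀ a, ¬ M a a) (hb : Function.Bijective nm)
    (hD : Desc M nm L) :
    ∃ cmp : (Fin 6 → Set (Fin 6)) → ℕ, (∀ h, LegC M h → cmp (fun k => h (k + 1)) ≠ cmp h) ∧
      ∀ T : Fin 6 → Set (Fin 6), AllowT M T → ∀ h g, LegC M h → LegC M g → (∀ k, h k ⊆ T k) →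
        (∀ k, g k ⊆ T k) → cmp h = cmp g := by
  obtain ⟨hi, hs⟩ := hb
  have O := ok_of ok
  obtain ⟨cmp, h1, h2⟩ := pal_table hA hN hc
  refine ⟨fun h => cmp (wd nm L h), fun h hL => ?_, fun T hT h g hL hG hh hg => ?_⟩
  · have hL' : LegC M (fun k => h (k + 1)) := by
      refine ⟨fun k => hL.pair (k + 1), fun k => hL.nb (k + 1), fun k => ?_⟩
      have := hL.ch (k + 1)
      have e : k + 1 + 3 = k + 3 + 1 := add_right_comm k 1 3
      rw [e] at this
      exact this
    refine h1 _ _ (legC_leg O hirr hi hs hD hL) (legC_leg O hirr hi hs hD hL') fun k hk => ?_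
    have key : ∀ k : Fin 6, (k.val + 1) % 6 = (k + 1 : Fin 6).val := by decide
    have e1 := wd_fin (nm := nm) (L := L) (fun k => h (k + 1)) ⟨k, hk⟩
    have e2 := wd_fin (nm := nm) (L := L) h (⟨k, hk⟩ + 1)
    rw [← key ⟨k, hk⟩] at e2
    exact e1.trans e2.symm
  · obtain ⟨hTL, hmP⟩ := allowT_leg O hirr hi hs hD hT hL hh
    have key : ∀ h : Fin 6 → Set (Fin 6), LegC M h → (∀ k, h k ⊆ T k) →
        ∀ k < 6, wd nm L h k ∈ PL.getD (wd nm P T k) [] := by
      intro h hL hh k hk
      have hm : mk nm (h ⟨k, hk⟩) ∈ L := pair_mem hirr hi hs hD (hL.pair _) (mk_spec nm _)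
      have e1 : wd nm L h k = L.idxOf (mk nm (h ⟨k, hk⟩)) := wd_fin h ⟨k, hk⟩
      have e2 : wd nm P T k = P.idxOf (mk nm (T ⟨k, hk⟩)) := wd_fin T ⟨k, hk⟩
      refine O.hPL _ (hTL.lt k hk) _ ((legC_leg O hirr hi hs hD hL).lt k hk) ?_
      rw [e1, e2, getD_idx hm, getD_idx (hmP _)]
      exact (mk_spec nm _).subset (mk_spec nm _) (hh _)
    exact h2 _ _ _ hTL (legC_leg O hirr hi hs hD hL) (legC_leg O hirr hi hs hD hG) (key h hL hh) (key g hG hg)

end spec

end Vale.Agent.P032.Words6.H724
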